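import Crest.Agent.Helper70.S0453.Table
import Crest.Agent.Helper5.S0453.OneDim

/-!
# (L3) for three-row tables, hypothesis-free (helper70's copy; S0453 / WP-D1t, insurance)

`OneDimStatement` is discharged by helper5's `oneDim`.
-/

namespace Crest.Agent.Helper70.S0453

/-- helper5's `oneDim` is `OneDimStatement`. -/
theorem oneDimStatement : OneDimStatement :=
  fun p hp hlc hint m g => Crest.Agent.Helper5.S0453.oneDim p hp hlc hint m g

/-- **(L3) for three-row 0/1 tables**, mean-zero form, no hypothesis left. -/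
theorem table_L3' {C : Type*} [Fintype C] [DecidableEq C] (r : Fin 3 → ℕ) (c : C → ℕ)
    (g : Fin 3 → Finset C → ℝ) (h0 : ∀ i, ∑ x ∈ tables r c, g i (x i) = 0) :
    ∑ x ∈ tables r c, (∑ i, g i (x i)) ^ 2 ≤ 2 * ∑ x ∈ tables r c, ∑ i, (g i (x i)) ^ 2 :=
  table_L3 oneDimStatement r c g h0

/-- (L3) transported along a bijection of a finite set with a table class, no hypothesis left. -/
theorem table_L3_of_bij' {C : Type*} [Fintype C] [DecidableEq C] {Ω : Type*} (F : Finset Ω)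
    (r : Fin 3 → ℕ) (c : C → ℕ) (row : Ω → Fin 3 → Finset C) (hinj : Set.InjOn row F)
    (himg : F.image row = tables r c) (g : Fin 3 → Ω → ℝ)
    (hg : ∀ i, ∀ ω ∈ F, ∀ ω' ∈ F, row ω i = row ω' i → g i ω = g i ω')
    (h0 : ∀ i, ∑ ω ∈ F, g i ω = 0) :
    ∑ ω ∈ F, (∑ i, g i ω) ^ 2 ≤ 2 * ∑ ω ∈ F, ∑ i, (g i ω) ^ 2 :=
  table_L3_of_bij oneDimStatement F r c row hinj himg g hg h0

/-- (L3) for the colouring model, mean-zero form, no hypothesis left. -/
theorem colour_L3_mean_zero' {K1 K2 : Type*} [Fintype K1] [Fintype K2] [DecidableEq K1]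
    [DecidableEq K2] (δ : Fin 3 → ℤ) (g : Fin 3 → CView K1 K2 → ℝ)
    (h0 : ∀ i, ∑ σ ∈ (cstates δ : Finset (CState K1 K2)), g i (view σ i) = 0) :
    ∑ σ ∈ (cstates δ : Finset (CState K1 K2)), (∑ i, g i (view σ i)) ^ 2
      ≤ 2 * ∑ σ ∈ (cstates δ : Finset (CState K1 K2)), ∑ i, (g i (view σ i)) ^ 2 :=
  colour_L3_mean_zero oneDimStatement δ g h0

end Crest.Agent.Helper70.S0453
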