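import Mathlib

/-!
# A Rayleigh minimiser lemma in coordinates (helper70, for S0453 / WP-D1)

If a symmetric bilinear form `Q` on `ι → ℝ` takes a negative value, then there are a nonzero
vector `v` and a number `q < 0` with `Q v h = q * ∑ i, v i * h i` for every `h`
(an eigenvector of the least eigenvalue, for the standard dot product).
-/

namespace Crest.Agent.Helper70.S0453

open Finset

theorem exists_neg_eigvec {ι : Type*} [Fintype ι] (Q : (ι → ℝ) → (ι → ℝ) → ℝ)
    (hadd : ∀ x y z, Q (x + y) z = Q x z + Q y z)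
    (hsmul : ∀ (t : ℝ) x z, Q (t • x) z = t * Q x z)
    (hsymm : ∀ x y, Q x y = Q y x)
    (hcont : Continuous fun x => Q x x)
    (x0 : ι → ℝ) (hx0 : Q x0 x0 < 0) :
    ∃ (v : ι → ℝ) (q : ℝ), q < 0 ∧ v ≠ 0 ∧ ∀ h, Q v h = q * ∑ i, v i * h i := by
  classical
  -- basic algebra of Q
  have hadd' : ∀ x y z, Q x (y + z) = Q x y + Q x z := by
    intro x y z; rw [hsymm, hadd, hsymm y, hsymm z]
  have hsmul' : ∀ (t : ℝ) x z, Q x (t • z) = t * Q x z := by
    intro t x z; rw [hsymm, hsmul, hsymm]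
  have hzero : ∀ z, Q 0 z = 0 := by
    intro z; have := hsmul 0 0 z; simpa using this
  set nrm : (ι → ℝ) → ℝ := fun x => ∑ i, x i ^ 2 with hnrm
  have hnrm_nonneg : ∀ x, 0 ≤ nrm x := fun x => Finset.sum_nonneg fun i _ => sq_nonneg _
  have hnrm_smul : ∀ (t : ℝ) x, nrm (t • x) = t ^ 2 * nrm x := by
    intro t x; simp only [hnrm, Pi.smul_apply, smul_eq_mul, mul_pow, Finset.mul_sum]
  have hnrm_zero : ∀ x, nrm x = 0 → x = 0 := by
    intro x hx
    funext i
    have h1 : ∀ j ∈ (Finset.univ : Finset ι), x j ^ 2 = 0 :=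
      (Finset.sum_eq_zero_iff_of_nonneg fun j _ => sq_nonneg (x j)).1 hx
    have := h1 i (Finset.mem_univ i)
    simpa using this
  have hnrm_cont : Continuous nrm := by
    simp only [hnrm]; fun_prop
  -- the sphere
  set S : Set (ι → ℝ) := {x | nrm x = 1} with hS
  have hSclosed : IsClosed S := isClosed_eq hnrm_cont continuous_const
  have hSbdd : Bornology.IsBounded S := by
    refine (Metric.isBounded_closedBall (x := (0 : ι → ℝ)) (r := 1)).subset ?_
    intro x hx
    rw [Metric.mem_closedBall, dist_zero_right, pi_norm_le_iff_of_nonneg zero_le_one]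
    intro i
    have h1 : x i ^ 2 ≤ nrm x :=
      Finset.single_le_sum (f := fun j => x j ^ 2) (fun j _ => sq_nonneg (x j)) (Finset.mem_univ i)
    have hx1 : nrm x = 1 := hx
    rw [Real.norm_eq_abs]
    have : |x i| ^ 2 ≤ 1 := by rw [sq_abs]; linarith
    nlinarith [abs_nonneg (x i)]
  have hScomp : IsCompact S := Metric.isCompact_of_isClosed_isBounded hSclosed hSbdd
  -- a point of the sphere with negative value
  have hx0ne : nrm x0 ≠ 0 := by
    intro h0
    have := hnrm_zero x0 h0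
    rw [this, hzero] at hx0
    exact lt_irrefl _ hx0
  have hx0pos : 0 < nrm x0 := lt_of_le_of_ne (hnrm_nonneg x0) (Ne.symm hx0ne)
  set y0 : ι → ℝ := (Real.sqrt (nrm x0))⁻¹ • x0 with hy0
  have hsq : Real.sqrt (nrm x0) ^ 2 = nrm x0 := Real.sq_sqrt hx0pos.le
  have hsqpos : 0 < Real.sqrt (nrm x0) := Real.sqrt_pos.2 hx0pos
  have hy0S : y0 ∈ S := by
    show nrm y0 = 1
    rw [hy0, hnrm_smul, inv_pow, hsq, inv_mul_cancel₀ hx0ne]
  have hy0neg : Q y0 y0 < 0 := by
    rw [hy0, hsmul, hsmul']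
    have : (Real.sqrt (nrm x0))⁻¹ * ((Real.sqrt (nrm x0))⁻¹ * Q x0 x0)
        = ((Real.sqrt (nrm x0))⁻¹) ^ 2 * Q x0 x0 := by ring
    rw [this]
    exact mul_neg_of_pos_of_neg (by positivity) hx0
  obtain ⟨v, hvS, hvmin⟩ := hScomp.exists_isMinOn ⟨y0, hy0S⟩ hcont.continuousOn
  have hvmin' : ∀ x ∈ S, Q v v ≤ Q x x := fun x hx => hvmin hx
  set q := Q v v with hq
  have hqneg : q < 0 := lt_of_le_of_lt (hvmin' y0 hy0S) hy0neg
  have hv1 : nrm v = 1 := hvS
  have hvne : v ≠ 0 := by
    intro h0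
    rw [h0] at hv1
    simp [hnrm] at hv1
  -- Q x x ≥ q * nrm x for all x
  have hall : ∀ x, q * nrm x ≤ Q x x := by
    intro x
    by_cases hx : nrm x = 0
    · have := hnrm_zero x hx
      rw [this, hzero]; simp [hnrm]
    · have hxpos : 0 < nrm x := lt_of_le_of_ne (hnrm_nonneg x) (Ne.symm hx)
      have hs : Real.sqrt (nrm x) ^ 2 = nrm x := Real.sq_sqrt hxpos.le
      have hspos : 0 < Real.sqrt (nrm x) := Real.sqrt_pos.2 hxpos
      have hmem : (Real.sqrt (nrm x))⁻¹ • x ∈ S := by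
        show nrm _ = 1
        rw [hnrm_smul, inv_pow, hs, inv_mul_cancel₀ hx]
      have h1 := hvmin' _ hmem
      rw [hsmul, hsmul'] at h1
      have h2 : (Real.sqrt (nrm x))⁻¹ * ((Real.sqrt (nrm x))⁻¹ * Q x x) = (nrm x)⁻¹ * Q x x := by
        rw [← mul_assoc, ← sq, inv_pow, hs]
      rw [h2] at h1
      have h3 : q * nrm x ≤ (nrm x)⁻¹ * Q x x * nrm x := mul_le_mul_of_nonneg_right h1 hxpos.le
      have h4 : (nrm x)⁻¹ * Q x x * nrm x = Q x x := by
        field_simp
      linarith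
  refine ⟨v, q, hqneg, hvne, ?_⟩
  intro h
  set b := Q v h - q * ∑ i, v i * h i with hb
  set c := Q h h - q * nrm h with hc
  have hc0 : 0 ≤ c := by have := hall h; simp only [hc]; linarith
  have hquad : ∀ t : ℝ, 0 ≤ 2 * t * b + t ^ 2 * c := by
    intro t
    have h1 := hall (v + t • h)
    have h2 : Q (v + t • h) (v + t • h) = q + 2 * t * Q v h + t ^ 2 * Q h h := by
      rw [hadd, hadd', hadd', hsmul, hsmul, hsmul', hsmul', hsymm h v]
      ring
    have h3 : nrm (v + t • h) = 1 + 2 * t * (∑ i, v i * h i) + t ^ 2 * nrm h := by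
      have : nrm (v + t • h) = nrm v + 2 * t * (∑ i, v i * h i) + t ^ 2 * nrm h := by
        simp only [hnrm, Pi.add_apply, Pi.smul_apply, smul_eq_mul, Finset.mul_sum,
          ← Finset.sum_add_distrib]
        refine Finset.sum_congr rfl fun i _ => ?_
        ring
      rw [this, hv1]
    rw [h2, h3] at h1
    simp only [hb, hc]
    nlinarith
  have hb0 : b = 0 := by
    by_contra hbne
    have h1 := hquad (-b / (c + 1))
    have hc1 : 0 < c + 1 := by linarith
    have h2 : 2 * (-b / (c + 1)) * b + (-b / (c + 1)) ^ 2 * c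
        = -(b ^ 2) * (c + 2) / (c + 1) ^ 2 := by
      field_simp
      ring
    rw [h2] at h1
    have h3 : -(b ^ 2) * (c + 2) / (c + 1) ^ 2 < 0 := by
      apply div_neg_of_neg_of_pos
      · have : 0 < b ^ 2 := by positivity
        nlinarith
      · positivity
    linarith
  have : Q v h - q * ∑ i, v i * h i = 0 := hb0
  linarith

end Crest.Agent.Helper70.S0453
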