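import Mathlib
import Crest.Agent.Helper70.S0453.Rayleigh

/-!
# The colouring model and the three-party inequality (L3)  (helper70, S0453 / WP-D1)

`K1`, `K2` finite sets of items, a state is a pair of colourings `σ1 : K1 → Fin 3`,
`σ2 : K2 → Fin 3` with `|σ1⁻¹ i| - |σ2⁻¹ i| = δ i`.  Party `i` sees the pair of fibres over `i`.
We prove `Var (∑ i, g i) ≤ 2 ∑ i, Var (g i)` for functions `g i` of the view of party `i`
(counting measure on the states, variance multiplied by `N²`), assuming the one-dimensional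
statement `OneDimStatement` (three independent log-concave integers conditioned on their sum).
-/

namespace Crest.Agent.Helper70.S0453

open Finset

/-- `N·Σ F G − (Σ F)(Σ G)`: covariance for the counting measure on a finset, times `N²`. -/
def cov {Ω : Type*} (s : Finset Ω) (F G : Ω → ℝ) : ℝ :=
  (s.card : ℝ) * ∑ ω ∈ s, F ω * G ω - (∑ ω ∈ s, F ω) * (∑ ω ∈ s, G ω)

lemma cov_comm {Ω : Type*} (s : Finset Ω) (F G : Ω → ℝ) : cov s F G = cov s G F := by
  simp only [cov, mul_comm]

lemma cov_add_left {Ω : Type*} (s : Finset Ω) (F F' G : Ω → ℝ) :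
    cov s (fun ω => F ω + F' ω) G = cov s F G + cov s F' G := by
  simp only [cov, add_mul, Finset.sum_add_distrib]; ring

lemma cov_smul_left {Ω : Type*} (s : Finset Ω) (t : ℝ) (F G : Ω → ℝ) :
    cov s (fun ω => t * F ω) G = t * cov s F G := by
  simp only [cov, mul_assoc, ← Finset.mul_sum]; ring

lemma cov_comp_equiv {Ω : Type*} (s : Finset Ω) (ρ : Ω ≃ Ω) (hρ : ∀ ω, ρ ω ∈ s ↔ ω ∈ s)
    (F G : Ω → ℝ) : cov s (fun ω => F (ρ ω)) (fun ω => G (ρ ω)) = cov s F G := by
  have key : ∀ H : Ω → ℝ, ∑ ω ∈ s, H (ρ ω) = ∑ ω ∈ s, H ω := fun H =>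
    Finset.sum_equiv ρ (fun ω => (hρ ω).symm) (fun _ _ => rfl)
  simp only [cov]
  rw [key (fun ω => F ω * G ω), key F, key G]

lemma cov_congr {Ω : Type*} (s : Finset Ω) (F G F' G' : Ω → ℝ) (hF : ∀ ω ∈ s, F ω = F' ω)
    (hG : ∀ ω ∈ s, G ω = G' ω) : cov s F G = cov s F' G' := by
  simp only [cov]
  rw [Finset.sum_congr rfl hF, Finset.sum_congr rfl hG,
    Finset.sum_congr rfl (fun ω hω => by rw [hF ω hω, hG ω hω])]

/-- The fibre of a colouring. -/
def fib {K : Type*} [Fintype K] (σ : K → Fin 3) (i : Fin 3) : Finset K :=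
  univ.filter fun w => σ w = i

lemma mem_fib {K : Type*} [Fintype K] (σ : K → Fin 3) (i : Fin 3) (w : K) :
    w ∈ fib σ i ↔ σ w = i := by simp [fib]


lemma map_swap_eq {K : Type*} [DecidableEq K] (a b : K) (s : Finset K) (h : a ∈ s ↔ b ∈ s) :
    s.map (Equiv.swap a b).toEmbedding = s := by
  ext w
  rw [Finset.mem_map_equiv, Equiv.symm_swap]
  by_cases hwa : w = a
  · subst hwa; rw [Equiv.swap_apply_left]; exact h.symm
  · by_cases hwb : w = b
    · subst hwb; rw [Equiv.swap_apply_right]; exact h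
    · rw [Equiv.swap_apply_of_ne_of_ne hwa hwb]

/-- A function of a finite set invariant under all transpositions depends only on the size. -/
theorem eq_of_card_eq_of_swap_inv {K : Type*} [DecidableEq K] (f : Finset K → ℝ)
    (hf : ∀ a b A, f (A.map (Equiv.swap a b).toEmbedding) = f A) :
    ∀ (n : ℕ) (A B : Finset K), (A \ B).card = n → A.card = B.card → f A = f B := by
  intro n
  induction n with
  | zero =>
    intro A B h0 hc
    have hsub : A ⊆ B := by rwa [Finset.card_eq_zero, Finset.sdiff_eq_empty_iff_subset] at h0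
    rw [Finset.eq_of_subset_of_card_le hsub hc.ge]
  | succ n ih =>
    intro A B hn hc
    have hne : (A \ B).Nonempty := by rw [← Finset.card_pos]; omega
    obtain ⟨a, ha⟩ := hne
    have hBA : (B \ A).card = (A \ B).card := by
      have h1 := Finset.card_sdiff_add_card_inter A B
      have h2 := Finset.card_sdiff_add_card_inter B A
      rw [Finset.inter_comm] at h2
      omega
    have hne' : (B \ A).Nonempty := by rw [← Finset.card_pos]; omega
    obtain ⟨b, hb⟩ := hne'
    have ha' := Finset.mem_sdiff.1 ha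
    have hb' := Finset.mem_sdiff.1 hb
    rw [← hf a b A]
    apply ih
    · have : (A.map (Equiv.swap a b).toEmbedding) \ B = (A \ B).erase a := by
        ext w
        simp only [Finset.mem_sdiff, Finset.mem_map_equiv, Finset.mem_erase, Equiv.symm_swap]
        by_cases hwa : w = a
        · subst hwa
          rw [Equiv.swap_apply_left]
          simp [hb'.2]
        · by_cases hwb : w = b
          · subst hwb
            rw [Equiv.swap_apply_right]
            simp [hb'.1]
          · rw [Equiv.swap_apply_of_ne_of_ne hwa hwb]; simp [hwa]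
      rw [this, Finset.card_erase_of_mem ha]; omega
    · rw [Finset.card_map]; exact hc

lemma sum_card_fib {K : Type*} [Fintype K] (σ : K → Fin 3) :
    ∑ i, (fib σ i).card = Fintype.card K := by
  classical
  have := Finset.card_eq_sum_card_fiberwise (s := (Finset.univ : Finset K))
    (t := (Finset.univ : Finset (Fin 3))) (f := σ) (fun x _ => Finset.mem_univ _)
  rw [Finset.card_univ] at this
  rw [this]
  rfl

/-- Number of colourings with prescribed fibre sizes. -/
theorem card_colourings {K : Type*} [Fintype K] [DecidableEq K] (k : Fin 3 → ℕ)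
    (hk : ∑ i, k i = Fintype.card K) :
    (univ.filter fun σ : K → Fin 3 => ∀ i, (fib σ i).card = k i).card
      * ((k 0).factorial * (k 1).factorial * (k 2).factorial) = (Fintype.card K).factorial := by
  classical
  set m := Fintype.card K with hm
  rw [Fin.sum_univ_three] at hk
  have hcard : (univ.filter fun σ : K → Fin 3 => ∀ i, (fib σ i).card = k i).card
      = ((powersetCard (k 0) (univ : Finset K)).sigma
          (fun A => powersetCard (k 1) (Aᶜ))).card := by
    refine Finset.card_bij (fun σ _ => ⟨fib σ 0, fib σ 1⟩) ?_ ?_ ?_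
    · intro σ hσ
      rw [Finset.mem_filter] at hσ
      rw [Finset.mem_sigma, Finset.mem_powersetCard, Finset.mem_powersetCard]
      refine ⟨⟨Finset.subset_univ _, hσ.2 0⟩, ?_, hσ.2 1⟩
      intro w hw
      simp only [fib, Finset.mem_filter, Finset.mem_univ, true_and, Finset.mem_compl] at hw ⊢
      rw [hw]; decide
    · intro σ hσ σ' hσ' heq
      simp only [Sigma.mk.injEq] at heq
      obtain ⟨h0, h1⟩ := heq
      have h1 : fib σ 1 = fib σ' 1 := eq_of_heq h1
      funext w
      have e0 : σ w = 0 ↔ σ' w = 0 := by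
        have := Finset.ext_iff.1 h0 w
        simpa [fib] using this
      have e1 : σ w = 1 ↔ σ' w = 1 := by
        have := Finset.ext_iff.1 h1 w
        simpa [fib] using this
      generalize σ w = x at e0 e1
      generalize σ' w = y at e0 e1
      revert x y
      decide
    · rintro ⟨A, B⟩ hAB
      rw [Finset.mem_sigma, Finset.mem_powersetCard, Finset.mem_powersetCard] at hAB
      obtain ⟨⟨-, hA⟩, hBsub, hB⟩ := hAB
      simp only at hA hBsub hB
      set σ : K → Fin 3 := fun w => if w ∈ A then 0 else if w ∈ B then 1 else 2 with hσ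
      have f0 : fib σ 0 = A := by
        ext w
        simp only [fib, Finset.mem_filter, Finset.mem_univ, true_and, hσ]
        by_cases hwA : w ∈ A
        · simp [hwA]
        · by_cases hwB : w ∈ B <;> simp [hwA, hwB]
      have f1 : fib σ 1 = B := by
        ext w
        simp only [fib, Finset.mem_filter, Finset.mem_univ, true_and, hσ]
        by_cases hwA : w ∈ A
        · have : w ∉ B := fun hwB => (Finset.mem_compl.1 (hBsub hwB)) hwA
          simp [hwA, this]
        · by_cases hwB : w ∈ B <;> simp [hwA, hwB]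
      refine ⟨σ, ?_, ?_⟩
      · rw [Finset.mem_filter]
        refine ⟨Finset.mem_univ _, ?_⟩
        have hs := sum_card_fib σ
        rw [Fin.sum_univ_three, f0, f1, hA, hB] at hs
        intro i
        fin_cases i
        · simp only [Fin.zero_eta]; rw [f0, hA]
        · simp only [Fin.mk_one]; rw [f1, hB]
        · simp only [Fin.reduceFinMk]; omega
      · simp only [f0, f1]
  rw [hcard, Finset.card_sigma]
  have h2 : ∀ A ∈ powersetCard (k 0) (univ : Finset K),
      (powersetCard (k 1) (Aᶜ)).card = (m - k 0).choose (k 1) := by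
    intro A hA
    rw [Finset.mem_powersetCard] at hA
    rw [Finset.card_powersetCard, Finset.card_compl, hA.2]
  rw [Finset.sum_congr rfl h2, Finset.sum_const, Finset.card_powersetCard, Finset.card_univ,
    smul_eq_mul]
  have hk0 : k 0 ≤ m := by omega
  have hk1 : k 1 ≤ m - k 0 := by omega
  have hk2 : k 2 = m - k 0 - k 1 := by omega
  have e1 := Nat.choose_mul_factorial_mul_factorial hk0
  have e2 := Nat.choose_mul_factorial_mul_factorial hk1
  rw [hk2, ← e1, ← e2]
  ring


section Colour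

variable {K1 K2 : Type*} [Fintype K1] [Fintype K2] [DecidableEq K1] [DecidableEq K2]


/-- States of the colouring model (before the constraint). -/
abbrev CState (K1 K2 : Type*) := (K1 → Fin 3) × (K2 → Fin 3)

/-- Views of a party. -/
abbrev CView (K1 K2 : Type*) := Finset K1 × Finset K2

/-- The states of the colouring model with deficits `δ`. -/
def cstates (δ : Fin 3 → ℤ) : Finset (CState K1 K2) :=
  univ.filter fun σ => ∀ i, ((fib σ.1 i).card : ℤ) - ((fib σ.2 i).card : ℤ) = δ i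

lemma mem_cstates (δ : Fin 3 → ℤ) (σ : CState K1 K2) :
    σ ∈ cstates δ ↔ ∀ i, ((fib σ.1 i).card : ℤ) - ((fib σ.2 i).card : ℤ) = δ i := by
  simp [cstates]

/-- What party `i` sees. -/
def view (σ : CState K1 K2) (i : Fin 3) : CView K1 K2 := (fib σ.1 i, fib σ.2 i)

/-- The value of party `i` at the state `σ`. -/
def ev (g : Fin 3 × CView K1 K2 → ℝ) (i : Fin 3) (σ : CState K1 K2) : ℝ := g (i, view σ i)

/-- The quadratic form `2 ∑ Var g_i − Var (∑ g_i)` (times `N²`), as a bilinear form. -/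
def Qf (δ : Fin 3 → ℤ) (g h : Fin 3 × CView K1 K2 → ℝ) : ℝ :=
  2 * ∑ i, cov (cstates δ) (ev g i) (ev h i)
    - cov (cstates δ) (fun σ => ∑ i, ev g i σ) (fun σ => ∑ i, ev h i σ)

lemma Qf_comm (δ : Fin 3 → ℤ) (g h : Fin 3 × CView K1 K2 → ℝ) : Qf δ g h = Qf δ h g := by
  unfold Qf
  rw [cov_comm (cstates δ) (fun σ => ∑ i, ev g i σ)]
  congr 2
  exact Finset.sum_congr rfl fun i _ => cov_comm _ _ _

lemma Qf_add_left (δ : Fin 3 → ℤ) (g g' h : Fin 3 × CView K1 K2 → ℝ) :
    Qf δ (g + g') h = Qf δ g h + Qf δ g' h := by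
  unfold Qf
  have h1 : ∀ i, ev (g + g') i = fun σ : CState K1 K2 => ev g i σ + ev g' i σ := fun i => rfl
  have h2 : (fun σ : CState K1 K2 => ∑ i, ev (g + g') i σ)
      = fun σ => (∑ i, ev g i σ) + ∑ i, ev g' i σ := by
    funext σ; rw [← Finset.sum_add_distrib]; rfl
  simp only [h1, h2, cov_add_left, Finset.sum_add_distrib]
  ring

lemma Qf_smul_left (δ : Fin 3 → ℤ) (t : ℝ) (g h : Fin 3 × CView K1 K2 → ℝ) :
    Qf δ (t • g) h = t * Qf δ g h := by
  unfold Qf
  have h1 : ∀ i, ev (t • g) i = fun σ : CState K1 K2 => t * ev g i σ := fun i => rfl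
  have h2 : (fun σ : CState K1 K2 => ∑ i, ev (t • g) i σ) = fun σ => t * ∑ i, ev g i σ := by
    funext σ; rw [Finset.mul_sum]; rfl
  simp only [h1, h2, cov_smul_left, ← Finset.mul_sum]
  ring

lemma Qf_add_right (δ : Fin 3 → ℤ) (g h h' : Fin 3 × CView K1 K2 → ℝ) :
    Qf δ g (h + h') = Qf δ g h + Qf δ g h' := by
  rw [Qf_comm, Qf_add_left, Qf_comm δ h, Qf_comm δ h']

lemma Qf_smul_right (δ : Fin 3 → ℤ) (t : ℝ) (g h : Fin 3 × CView K1 K2 → ℝ) :
    Qf δ g (t • h) = t * Qf δ g h := by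
  rw [Qf_comm, Qf_smul_left, Qf_comm]

lemma Qf_continuous (δ : Fin 3 → ℤ) :
    Continuous fun g : Fin 3 × CView K1 K2 → ℝ => Qf δ g g := by
  unfold Qf cov ev
  fun_prop

/-! ### The symmetry -/

/-- Action of a pair of permutations on states. -/
def actS (e1 : Equiv.Perm K1) (e2 : Equiv.Perm K2) : CState K1 K2 ≃ CState K1 K2 where
  toFun σ := (σ.1 ∘ e1, σ.2 ∘ e2)
  invFun σ := (σ.1 ∘ e1.symm, σ.2 ∘ e2.symm)
  left_inv σ := by ext <;> simp
  right_inv σ := by ext <;> simp

/-- Action of a pair of permutations on views. -/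
def actV (e1 : Equiv.Perm K1) (e2 : Equiv.Perm K2) : CView K1 K2 ≃ CView K1 K2 :=
  Equiv.prodCongr (Equiv.finsetCongr e1.symm) (Equiv.finsetCongr e2.symm)

lemma fib_comp {K : Type*} [Fintype K] [DecidableEq K] (σ : K → Fin 3) (e : Equiv.Perm K)
    (i : Fin 3) : fib (σ ∘ e) i = (fib σ i).map e.symm.toEmbedding := by
  ext w
  simp [fib, Finset.mem_map_equiv]

lemma view_actS (e1 : Equiv.Perm K1) (e2 : Equiv.Perm K2) (σ : CState K1 K2) (i : Fin 3) :
    view (actS e1 e2 σ) i = actV e1 e2 (view σ i) := by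
  simp [view, actS, actV, fib_comp]

lemma actS_mem (δ : Fin 3 → ℤ) (e1 : Equiv.Perm K1) (e2 : Equiv.Perm K2) (σ : CState K1 K2) :
    actS e1 e2 σ ∈ cstates δ ↔ σ ∈ cstates δ := by
  simp [mem_cstates, actS, fib_comp]

/-- Action on triples of functions. -/
def actG (e1 : Equiv.Perm K1) (e2 : Equiv.Perm K2) (g : Fin 3 × CView K1 K2 → ℝ) :
    Fin 3 × CView K1 K2 → ℝ := fun x => g (x.1, actV e1 e2 x.2)

lemma ev_actG (e1 : Equiv.Perm K1) (e2 : Equiv.Perm K2) (g : Fin 3 × CView K1 K2 → ℝ)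
    (i : Fin 3) : ev (actG e1 e2 g) i = fun σ => ev g i (actS e1 e2 σ) := by
  funext σ
  simp [ev, actG, view_actS]

lemma Qf_actG (δ : Fin 3 → ℤ) (e1 : Equiv.Perm K1) (e2 : Equiv.Perm K2)
    (g h : Fin 3 × CView K1 K2 → ℝ) : Qf δ (actG e1 e2 g) (actG e1 e2 h) = Qf δ g h := by
  unfold Qf
  simp only [ev_actG]
  rw [cov_comp_equiv (cstates δ) (actS e1 e2) (actS_mem δ e1 e2)
    (fun σ => ∑ i, ev g i σ) (fun σ => ∑ i, ev h i σ)]
  congr 2
  exact Finset.sum_congr rfl fun i _ =>
    cov_comp_equiv (cstates δ) (actS e1 e2) (actS_mem δ e1 e2) (ev g i) (ev h i)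

lemma dot_actG (e1 : Equiv.Perm K1) (e2 : Equiv.Perm K2) (g h : Fin 3 × CView K1 K2 → ℝ) :
    ∑ x, actG e1 e2 g x * actG e1 e2 h x = ∑ x, g x * h x :=
  Fintype.sum_equiv (Equiv.prodCongr (Equiv.refl _) (actV e1 e2)) _ _ (fun _ => rfl)

/-- The antisymmetric case: pointwise Cauchy–Schwarz. -/
lemma Qf_nonneg_of_anti (δ : Fin 3 → ℤ) (e1 : Equiv.Perm K1) (e2 : Equiv.Perm K2)
    (g : Fin 3 × CView K1 K2 → ℝ)
    (hfix : ∀ σ : CState K1 K2, ∃ i₀, actV e1 e2 (view σ i₀) = view σ i₀)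
    (hanti : ∀ x, actG e1 e2 g x = - g x) : 0 ≤ Qf δ g g := by
  have hsum0 : ∀ i, ∑ σ ∈ cstates δ, ev g i σ = 0 := by
    intro i
    have h1 : ∑ σ ∈ cstates δ, ev g i (actS e1 e2 σ) = ∑ σ ∈ cstates δ, ev g i σ :=
      Finset.sum_equiv (actS e1 e2) (fun σ => (actS_mem δ e1 e2 σ).symm) (fun _ _ => rfl)
    have h2 : ∑ σ ∈ cstates δ, ev g i (actS e1 e2 σ) = - ∑ σ ∈ cstates δ, ev g i σ := by
      rw [← Finset.sum_neg_distrib]
      refine Finset.sum_congr rfl fun σ _ => ?_
      have := congrFun (ev_actG e1 e2 g i) σ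
      rw [← this]
      simp only [ev]
      exact hanti _
    linarith
  have hpt : ∀ σ : CState K1 K2, (∑ i, ev g i σ) ^ 2 ≤ 2 * ∑ i, (ev g i σ) ^ 2 := by
    intro σ
    obtain ⟨i₀, hi₀⟩ := hfix σ
    have hz : ev g i₀ σ = 0 := by
      have := hanti (i₀, view σ i₀)
      simp only [actG, hi₀] at this
      simp only [ev]; linarith
    rw [Fin.sum_univ_three, Fin.sum_univ_three]
    fin_cases i₀
    · simp only [Fin.zero_eta] at hz
      rw [hz]; nlinarith [sq_nonneg (ev g 1 σ - ev g 2 σ)]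
    · simp only [Fin.mk_one] at hz
      rw [hz]; nlinarith [sq_nonneg (ev g 0 σ - ev g 2 σ)]
    · simp only [Fin.reduceFinMk] at hz
      rw [hz]; nlinarith [sq_nonneg (ev g 0 σ - ev g 1 σ)]
  have hS0 : ∑ σ ∈ cstates δ, ∑ i, ev g i σ = 0 := by
    rw [Finset.sum_comm]; exact Finset.sum_eq_zero fun i _ => hsum0 i
  unfold Qf cov
  simp only [hsum0, hS0, mul_zero, sub_zero]
  rw [← Finset.mul_sum, ← mul_assoc, mul_comm (2 : ℝ), mul_assoc, ← mul_sub]
  apply mul_nonneg (Nat.cast_nonneg _)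
  rw [Finset.sum_comm, Finset.mul_sum, ← Finset.sum_sub_distrib]
  apply Finset.sum_nonneg
  intro σ _
  have := hpt σ
  simp only [← sq]
  linarith

/-- A negative eigenvector is invariant under every involutive symmetry with the fixing property. -/
lemma inv_of_eig (δ : Fin 3 → ℤ) (e1 : Equiv.Perm K1) (e2 : Equiv.Perm K2)
    (hinvol : ∀ Y, actV e1 e2 (actV e1 e2 Y) = Y)
    (hfix : ∀ σ : CState K1 K2, ∃ i₀, actV e1 e2 (view σ i₀) = view σ i₀)
    (v : Fin 3 × CView K1 K2 → ℝ) (q : ℝ) (hq : q < 0)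
    (heig : ∀ h, Qf δ v h = q * ∑ x, v x * h x) : ∀ x, actG e1 e2 v x = v x := by
  have hact2 : ∀ g : Fin 3 × CView K1 K2 → ℝ, actG e1 e2 (actG e1 e2 g) = g := by
    intro g; funext x; simp [actG, hinvol]
  set w : Fin 3 × CView K1 K2 → ℝ := v + (-1 : ℝ) • actG e1 e2 v with hw
  have hwx : ∀ x, w x = v x - actG e1 e2 v x := by
    intro x; simp [hw]; ring
  have hanti : ∀ x, actG e1 e2 w x = - w x := by
    intro x
    have h1 : actG e1 e2 w x = actG e1 e2 v x - actG e1 e2 (actG e1 e2 v) x := by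
      simp only [actG, hwx]
    rw [h1, hact2, hwx]; ring
  have hQw : ∀ h, Qf δ w h = q * ∑ x, w x * h x := by
    intro h
    rw [hw, Qf_add_left, Qf_smul_left, heig]
    have h1 : Qf δ (actG e1 e2 v) h = q * ∑ x, actG e1 e2 v x * h x := by
      have h2 : Qf δ (actG e1 e2 v) h = Qf δ v (actG e1 e2 h) := by
        rw [← Qf_actG δ e1 e2 (actG e1 e2 v) h, hact2]
      rw [h2, heig]
      congr 1
      rw [← dot_actG e1 e2 (actG e1 e2 v) h, hact2]
    rw [h1]
    have h3 : ∑ x, (v + (-1 : ℝ) • actG e1 e2 v) x * h x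
        = ∑ x, v x * h x - ∑ x, actG e1 e2 v x * h x := by
      rw [← Finset.sum_sub_distrib]
      refine Finset.sum_congr rfl fun x _ => ?_
      simp; ring
    rw [h3]; ring
  have h0 := Qf_nonneg_of_anti δ e1 e2 w hfix hanti
  rw [hQw w] at h0
  have hsq : ∑ x, w x * w x ≤ 0 := by
    by_contra hpos
    push Not at hpos
    have := mul_neg_of_neg_of_pos hq hpos
    linarith
  have hzero : ∀ x ∈ (Finset.univ : Finset (Fin 3 × CView K1 K2)), w x * w x = 0 := by
    have hnn : ∀ x ∈ (Finset.univ : Finset (Fin 3 × CView K1 K2)), 0 ≤ w x * w x :=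
      fun x _ => mul_self_nonneg _
    exact (Finset.sum_eq_zero_iff_of_nonneg hnn).1 (le_antisymm hsq (Finset.sum_nonneg hnn))
  intro x
  have h1 := hzero x (Finset.mem_univ x)
  have h2 : w x = 0 := by simpa using h1
  rw [hwx] at h2
  linarith


/-! ### Swaps -/

lemma actV_swap_left_invol (a b : K1) (Y : CView K1 K2) :
    actV (Equiv.swap a b) (Equiv.refl K2) (actV (Equiv.swap a b) (Equiv.refl K2) Y) = Y := by
  obtain ⟨A, C⟩ := Y
  refine Prod.ext ?_ ?_
  · ext w; simp [actV, Finset.mem_map_equiv]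
  · ext w; simp [actV]

lemma actV_swap_right_invol (a b : K2) (Y : CView K1 K2) :
    actV (Equiv.refl K1) (Equiv.swap a b) (actV (Equiv.refl K1) (Equiv.swap a b) Y) = Y := by
  obtain ⟨A, C⟩ := Y
  refine Prod.ext ?_ ?_
  · ext w; simp [actV]
  · ext w; simp [actV, Finset.mem_map_equiv]

lemma exists_fix_left (a b : K1) (σ : CState K1 K2) :
    ∃ i₀, actV (Equiv.swap a b) (Equiv.refl K2) (view σ i₀) = view σ i₀ := by
  obtain ⟨i₀, h1, h2⟩ : ∃ i₀ : Fin 3, i₀ ≠ σ.1 a ∧ i₀ ≠ σ.1 b := by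
    have : ∀ x y : Fin 3, ∃ i : Fin 3, i ≠ x ∧ i ≠ y := by decide
    exact this _ _
  refine ⟨i₀, ?_⟩
  have hm : (fib σ.1 i₀).map (Equiv.swap a b).toEmbedding = fib σ.1 i₀ := by
    apply map_swap_eq
    rw [mem_fib, mem_fib]
    exact ⟨fun h => absurd h.symm h1, fun h => absurd h.symm h2⟩
  refine Prod.ext ?_ ?_
  · simp only [actV, view, Equiv.prodCongr_apply, Prod.map_fst, Equiv.finsetCongr_apply,
      Equiv.symm_swap]
    exact hm
  · simp [actV, view]

lemma exists_fix_right (a b : K2) (σ : CState K1 K2) :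
    ∃ i₀, actV (Equiv.refl K1) (Equiv.swap a b) (view σ i₀) = view σ i₀ := by
  obtain ⟨i₀, h1, h2⟩ : ∃ i₀ : Fin 3, i₀ ≠ σ.2 a ∧ i₀ ≠ σ.2 b := by
    have : ∀ x y : Fin 3, ∃ i : Fin 3, i ≠ x ∧ i ≠ y := by decide
    exact this _ _
  refine ⟨i₀, ?_⟩
  have hm : (fib σ.2 i₀).map (Equiv.swap a b).toEmbedding = fib σ.2 i₀ := by
    apply map_swap_eq
    rw [mem_fib, mem_fib]
    exact ⟨fun h => absurd h.symm h1, fun h => absurd h.symm h2⟩
  refine Prod.ext ?_ ?_
  · simp [actV, view]
  · simp only [actV, view, Equiv.prodCongr_apply, Prod.map_snd, Equiv.finsetCongr_apply,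
      Equiv.symm_swap]
    exact hm

/-! ### The level weights -/

/-- The one-dimensional statement: three independent log-concave integers conditioned on their
sum (helper5's `oneDim`, in the shape of board post #1760). -/
def OneDimStatement : Prop :=
  ∀ (p : Fin 3 → ℕ → ℝ), (∀ i k, 0 ≤ p i k) → (∀ i k, p i k * p i (k + 2) ≤ p i (k + 1) ^ 2) →
    (∀ i a b c, a ≤ b → b ≤ c → 0 < p i a → 0 < p i c → 0 < p i b) →
    ∀ (m : ℕ) (g : Fin 3 → ℕ → ℝ),
      (∑ l ∈ Finset.Nat.antidiagonalTuple 3 m, ∏ j, p j (l j)) *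
          (∑ l ∈ Finset.Nat.antidiagonalTuple 3 m, (∏ j, p j (l j)) * (∑ i, g i (l i)) ^ 2) -
          (∑ l ∈ Finset.Nat.antidiagonalTuple 3 m, (∏ j, p j (l j)) * ∑ i, g i (l i)) ^ 2 ≤
        2 * ∑ i, ((∑ l ∈ Finset.Nat.antidiagonalTuple 3 m, ∏ j, p j (l j)) *
          (∑ l ∈ Finset.Nat.antidiagonalTuple 3 m, (∏ j, p j (l j)) * g i (l i) ^ 2) -
          (∑ l ∈ Finset.Nat.antidiagonalTuple 3 m, (∏ j, p j (l j)) * g i (l i)) ^ 2)

/-- The level weight `1 / (l! (l - δ)!)`. -/
noncomputable def pw (δ : ℤ) (l : ℕ) : ℝ :=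
  if δ ≤ (l : ℤ) then ((l.factorial : ℝ) * ((((l : ℤ) - δ).toNat.factorial : ℕ) : ℝ))⁻¹ else 0

lemma pw_nonneg (δ : ℤ) (l : ℕ) : 0 ≤ pw δ l := by
  unfold pw
  split_ifs
  · positivity
  · exact le_rfl

lemma pw_pos_iff (δ : ℤ) (l : ℕ) : 0 < pw δ l ↔ δ ≤ (l : ℤ) := by
  unfold pw
  split_ifs with h
  · simp only [h, iff_true]; positivity
  · simp [h]

lemma pw_logconcave (δ : ℤ) (k : ℕ) : pw δ k * pw δ (k + 2) ≤ pw δ (k + 1) ^ 2 := by
  by_cases h : δ ≤ (k : ℤ)
  · have h1 : δ ≤ ((k + 1 : ℕ) : ℤ) := by push_cast; omega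
    have h2 : δ ≤ ((k + 2 : ℕ) : ℤ) := by push_cast; omega
    obtain ⟨j, hj⟩ : ∃ j : ℕ, ((k : ℤ) - δ).toNat = j := ⟨_, rfl⟩
    have hj1 : (((k + 1 : ℕ) : ℤ) - δ).toNat = j + 1 := by push_cast; omega
    have hj2 : (((k + 2 : ℕ) : ℤ) - δ).toNat = j + 2 := by push_cast; omega
    unfold pw
    rw [if_pos h, if_pos h1, if_pos h2, hj, hj1, hj2]
    have ek1 : ((k + 1).factorial : ℝ) = (k + 1 : ℝ) * (k.factorial : ℝ) := by
      rw [Nat.factorial_succ]; push_cast; ring
    have ek2 : ((k + 2).factorial : ℝ) = (k + 2 : ℝ) * ((k + 1 : ℝ) * (k.factorial : ℝ)) := by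
      rw [Nat.factorial_succ, Nat.factorial_succ]; push_cast; ring
    have ej1 : ((j + 1).factorial : ℝ) = (j + 1 : ℝ) * (j.factorial : ℝ) := by
      rw [Nat.factorial_succ]; push_cast; ring
    have ej2 : ((j + 2).factorial : ℝ) = (j + 2 : ℝ) * ((j + 1 : ℝ) * (j.factorial : ℝ)) := by
      rw [Nat.factorial_succ, Nat.factorial_succ]; push_cast; ring
    rw [ek1, ek2, ej1, ej2]
    have ha : (0 : ℝ) < (k.factorial : ℝ) := by positivity
    have hb : (0 : ℝ) < (j.factorial : ℝ) := by positivity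
    have hx : (0 : ℝ) ≤ (k : ℝ) := Nat.cast_nonneg _
    have hy : (0 : ℝ) ≤ (j : ℝ) := Nat.cast_nonneg _
    rw [← mul_inv, inv_pow]
    apply inv_anti₀ (by positivity)
    have e : (k.factorial : ℝ) * (j.factorial : ℝ) *
        ((k + 2 : ℝ) * ((k + 1 : ℝ) * (k.factorial : ℝ)) * ((j + 2 : ℝ) * ((j + 1 : ℝ) * (j.factorial : ℝ))))
        - ((k + 1 : ℝ) * (k.factorial : ℝ) * ((j + 1 : ℝ) * (j.factorial : ℝ))) ^ 2
        = ((k.factorial : ℝ) * (j.factorial : ℝ)) ^ 2 * ((k + 1 : ℝ) * (j + 1 : ℝ)) * ((k : ℝ) + j + 3) := by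
      ring
    have : 0 ≤ ((k.factorial : ℝ) * (j.factorial : ℝ)) ^ 2 * ((k + 1 : ℝ) * (j + 1 : ℝ)) * ((k : ℝ) + j + 3) := by
      positivity
    linarith
  · have : pw δ k = 0 := by unfold pw; rw [if_neg h]
    rw [this, zero_mul]
    positivity

/-- The number of states above a level vector. -/
lemma card_level (δ : Fin 3 → ℤ) (hne : (cstates δ : Finset (CState K1 K2)).Nonempty)
    (l : Fin 3 → ℕ) (hl : ∑ i, l i = Fintype.card K1) :
    ((((cstates δ : Finset (CState K1 K2)).filter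
        (fun σ => (fun i => (fib σ.1 i).card) = l)).card : ℕ) : ℝ)
      = ((Fintype.card K1).factorial : ℝ) * ((Fintype.card K2).factorial : ℝ)
          * ∏ j, pw (δ j) (l j) := by
  classical
  obtain ⟨σ0, hσ0⟩ := hne
  have hδsum : ∑ i, δ i = (Fintype.card K1 : ℤ) - (Fintype.card K2 : ℤ) := by
    have h := (mem_cstates δ σ0).1 hσ0
    rw [← Finset.sum_congr rfl (fun i _ => h i), Finset.sum_sub_distrib, ← Nat.cast_sum,
      ← Nat.cast_sum, sum_card_fib, sum_card_fib]
  set A1 : Finset (K1 → Fin 3) := univ.filter fun σ1 => ∀ i, (fib σ1 i).card = l i with hA1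
  set A2 : Finset (K2 → Fin 3) :=
    univ.filter fun σ2 => ∀ i, ((fib σ2 i).card : ℤ) = (l i : ℤ) - δ i with hA2
  have hprod : (cstates δ : Finset (CState K1 K2)).filter
      (fun σ => (fun i => (fib σ.1 i).card) = l) = A1 ×ˢ A2 := by
    ext σ
    simp only [Finset.mem_filter, mem_cstates, Finset.mem_product, hA1, hA2, Finset.mem_univ,
      true_and]
    constructor
    · rintro ⟨h1, h2⟩
      have h2' : ∀ i, (fib σ.1 i).card = l i := fun i => congrFun h2 i
      refine ⟨h2', fun i => ?_⟩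
      have := h1 i
      rw [h2' i] at this
      linarith
    · rintro ⟨h1, h2⟩
      refine ⟨fun i => ?_, funext h1⟩
      rw [h1 i, h2 i]; ring
  rw [hprod, Finset.card_product, Nat.cast_mul]
  have hc1 := card_colourings (K := K1) l hl
  rw [← hA1] at hc1
  have hc1' : (A1.card : ℝ) * (((l 0).factorial : ℝ) * ((l 1).factorial : ℝ) * ((l 2).factorial : ℝ))
      = ((Fintype.card K1).factorial : ℝ) := by exact_mod_cast hc1
  by_cases hall : ∀ i, δ i ≤ (l i : ℤ)
  · set k : Fin 3 → ℕ := fun i => ((l i : ℤ) - δ i).toNat with hk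
    have hkc : ∀ i, ((k i : ℕ) : ℤ) = (l i : ℤ) - δ i := by
      intro i; simp only [hk]; have := hall i; omega
    have hksum : ∑ i, k i = Fintype.card K2 := by
      have : ((∑ i, k i : ℕ) : ℤ) = (Fintype.card K2 : ℤ) := by
        rw [Nat.cast_sum, Finset.sum_congr rfl (fun i _ => hkc i), Finset.sum_sub_distrib,
          ← Nat.cast_sum, hl, hδsum]
        ring
      exact_mod_cast this
    have hA2' : A2 = univ.filter fun σ2 : K2 → Fin 3 => ∀ i, (fib σ2 i).card = k i := by
      ext σ2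
      simp only [hA2, Finset.mem_filter, Finset.mem_univ, true_and]
      constructor
      · intro h i; have := h i; have := hkc i; omega
      · intro h i; rw [h i, hkc i]
    have hc2 := card_colourings (K := K2) k hksum
    rw [← hA2'] at hc2
    have hc2' : (A2.card : ℝ) * (((k 0).factorial : ℝ) * ((k 1).factorial : ℝ) * ((k 2).factorial : ℝ))
        = ((Fintype.card K2).factorial : ℝ) := by exact_mod_cast hc2
    rw [Fin.prod_univ_three]
    unfold pw
    rw [if_pos (hall 0), if_pos (hall 1), if_pos (hall 2), ← hc1', ← hc2']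
    have p0 : (0 : ℝ) < ((l 0).factorial : ℝ) := by positivity
    have p1 : (0 : ℝ) < ((l 1).factorial : ℝ) := by positivity
    have p2 : (0 : ℝ) < ((l 2).factorial : ℝ) := by positivity
    have q0 : (0 : ℝ) < ((k 0).factorial : ℝ) := by positivity
    have q1 : (0 : ℝ) < ((k 1).factorial : ℝ) := by positivity
    have q2 : (0 : ℝ) < ((k 2).factorial : ℝ) := by positivity
    simp only [hk]
    field_simp
  · push Not at hall
    obtain ⟨i, hi⟩ := hall
    have hA2e : A2 = ∅ := by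
      rw [Finset.eq_empty_iff_forall_notMem]
      intro σ2 hσ2
      simp only [hA2, Finset.mem_filter, Finset.mem_univ, true_and] at hσ2
      have := hσ2 i
      have h0 : (0 : ℤ) ≤ ((fib σ2 i).card : ℤ) := Nat.cast_nonneg _
      omega
    have hz : ∏ j, pw (δ j) (l j) = 0 := by
      apply Finset.prod_eq_zero (Finset.mem_univ i)
      unfold pw
      rw [if_neg (not_le.2 hi)]
    rw [hA2e, hz]
    simp


/-- The level vector of a state. -/
def lev (σ : CState K1 K2) : Fin 3 → ℕ := fun i => (fib σ.1 i).card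

/-- The weight of a level vector. -/
noncomputable def wl (δ : Fin 3 → ℤ) (l : Fin 3 → ℕ) : ℝ := ∏ j, pw (δ j) (l j)

/-- Level functions satisfy the inequality (by the one-dimensional statement). -/
lemma Qf_nonneg_of_level (h1D : OneDimStatement) (δ : Fin 3 → ℤ)
    (v : Fin 3 × CView K1 K2 → ℝ) (φ : Fin 3 → ℕ → ℝ)
    (hv : ∀ σ ∈ (cstates δ : Finset (CState K1 K2)), ∀ i, ev v i σ = φ i (lev σ i)) :
    0 ≤ Qf δ v v := by
  by_cases hΩ : (cstates δ : Finset (CState K1 K2)) = ∅
  · simp [Qf, cov, hΩ]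
  have hne : (cstates δ : Finset (CState K1 K2)).Nonempty := Finset.nonempty_iff_ne_empty.2 hΩ
  set T := Finset.Nat.antidiagonalTuple 3 (Fintype.card K1) with hT
  have hLT : ∀ σ : CState K1 K2, lev σ ∈ T := fun σ =>
    Finset.Nat.mem_antidiagonalTuple.2 (sum_card_fib σ.1)
  set c : ℝ := ((Fintype.card K1).factorial : ℝ) * ((Fintype.card K2).factorial : ℝ) with hc
  have hsumF : ∀ F : (Fin 3 → ℕ) → ℝ,
      ∑ σ ∈ (cstates δ : Finset (CState K1 K2)), F (lev σ) = c * ∑ l ∈ T, wl δ l * F l := by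
    intro F
    rw [← Finset.sum_fiberwise_of_maps_to (g := lev) (t := T) (fun σ _ => hLT σ), Finset.mul_sum]
    refine Finset.sum_congr rfl fun l hl => ?_
    have hl' : ∑ i, l i = Fintype.card K1 := Finset.Nat.mem_antidiagonalTuple.1 hl
    have h1 : ∀ σ ∈ (cstates δ : Finset (CState K1 K2)).filter (fun σ => lev σ = l),
        F (lev σ) = F l := fun σ hσ => by rw [(Finset.mem_filter.1 hσ).2]
    rw [Finset.sum_congr rfl h1, Finset.sum_const, nsmul_eq_mul]
    have h2 := card_level δ hne l hl'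
    have h3 : (((cstates δ : Finset (CState K1 K2)).filter (fun σ => lev σ = l)).card : ℝ)
        = c * wl δ l := h2
    rw [h3]; ring
  have hN : ((cstates δ : Finset (CState K1 K2)).card : ℝ) = c * ∑ l ∈ T, wl δ l := by
    have := hsumF (fun _ => 1)
    simpa using this
  have hcov : ∀ F G : (Fin 3 → ℕ) → ℝ,
      cov (cstates δ : Finset (CState K1 K2)) (fun σ => F (lev σ)) (fun σ => G (lev σ))
        = c ^ 2 * ((∑ l ∈ T, wl δ l) * (∑ l ∈ T, wl δ l * (F l * G l))
            - (∑ l ∈ T, wl δ l * F l) * (∑ l ∈ T, wl δ l * G l)) := by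
    intro F G
    unfold cov
    rw [hN, hsumF (fun l => F l * G l), hsumF F, hsumF G]
    ring
  have key : (∑ l ∈ T, wl δ l) * (∑ l ∈ T, wl δ l * (∑ i, φ i (l i)) ^ 2)
        - (∑ l ∈ T, wl δ l * ∑ i, φ i (l i)) ^ 2
      ≤ 2 * ∑ i, ((∑ l ∈ T, wl δ l) * (∑ l ∈ T, wl δ l * φ i (l i) ^ 2)
        - (∑ l ∈ T, wl δ l * φ i (l i)) ^ 2) :=
    h1D (fun j => pw (δ j)) (fun i k => pw_nonneg _ _) (fun i k => pw_logconcave _ _)
      (fun i a b c hab hbc ha _ => by
        rw [pw_pos_iff] at ha ⊢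
        have : (a : ℤ) ≤ (b : ℤ) := by exact_mod_cast hab
        linarith) (Fintype.card K1) φ
  have e1 : ∀ i, cov (cstates δ : Finset (CState K1 K2)) (ev v i) (ev v i)
      = c ^ 2 * ((∑ l ∈ T, wl δ l) * (∑ l ∈ T, wl δ l * φ i (l i) ^ 2)
        - (∑ l ∈ T, wl δ l * φ i (l i)) ^ 2) := by
    intro i
    have h1 : cov (cstates δ : Finset (CState K1 K2)) (ev v i) (ev v i)
        = cov (cstates δ) (fun σ => φ i (lev σ i)) (fun σ => φ i (lev σ i)) :=
      cov_congr _ _ _ _ _ (fun σ hσ => hv σ hσ i) (fun σ hσ => hv σ hσ i)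
    rw [h1]
    have h2 := hcov (fun l => φ i (l i)) (fun l => φ i (l i))
    simpa only [pow_two] using h2
  have e2 : cov (cstates δ : Finset (CState K1 K2)) (fun σ => ∑ i, ev v i σ)
        (fun σ => ∑ i, ev v i σ)
      = c ^ 2 * ((∑ l ∈ T, wl δ l) * (∑ l ∈ T, wl δ l * (∑ i, φ i (l i)) ^ 2)
        - (∑ l ∈ T, wl δ l * ∑ i, φ i (l i)) ^ 2) := by
    have h1 : cov (cstates δ : Finset (CState K1 K2)) (fun σ => ∑ i, ev v i σ)
          (fun σ => ∑ i, ev v i σ)
        = cov (cstates δ) (fun σ => ∑ i, φ i (lev σ i)) (fun σ => ∑ i, φ i (lev σ i)) :=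
      cov_congr _ _ _ _ _ (fun σ hσ => Finset.sum_congr rfl fun i _ => hv σ hσ i)
        (fun σ hσ => Finset.sum_congr rfl fun i _ => hv σ hσ i)
    rw [h1]
    have h2 := hcov (fun l => ∑ i, φ i (l i)) (fun l => ∑ i, φ i (l i))
    simpa only [pow_two] using h2
  unfold Qf
  rw [e2, Finset.sum_congr rfl (fun i _ => e1 i), ← Finset.mul_sum]
  have hc2 : 0 ≤ c ^ 2 := sq_nonneg c
  nlinarith [mul_le_mul_of_nonneg_left key hc2]

/-- **(L3) for the colouring model**, as positivity of the form `Qf`. -/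
theorem colour_L3 (h1D : OneDimStatement) (δ : Fin 3 → ℤ) (g : Fin 3 × CView K1 K2 → ℝ) :
    0 ≤ Qf δ g g := by
  by_contra hneg
  rw [not_le] at hneg
  obtain ⟨v, q, hq, hvne, heig⟩ := exists_neg_eigvec (Qf δ) (Qf_add_left δ) (Qf_smul_left δ)
    (Qf_comm δ) (Qf_continuous δ) g hneg
  have hinv1 : ∀ (a b : K1) (x), actG (Equiv.swap a b) (Equiv.refl K2) v x = v x := fun a b =>
    inv_of_eig δ _ _ (actV_swap_left_invol a b) (exists_fix_left a b) v q hq heig
  have hinv2 : ∀ (a b : K2) (x), actG (Equiv.refl K1) (Equiv.swap a b) v x = v x := fun a b =>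
    inv_of_eig δ _ _ (actV_swap_right_invol a b) (exists_fix_right a b) v q hq heig
  have hs1 : ∀ (i : Fin 3) (C : Finset K2) (a b : K1) (A : Finset K1),
      v (i, (A.map (Equiv.swap a b).toEmbedding, C)) = v (i, (A, C)) := by
    intro i C a b A
    have := hinv1 a b (i, (A, C))
    simpa [actG, actV] using this
  have hs2 : ∀ (i : Fin 3) (A : Finset K1) (a b : K2) (C : Finset K2),
      v (i, (A, C.map (Equiv.swap a b).toEmbedding)) = v (i, (A, C)) := by
    intro i A a b C
    have := hinv2 a b (i, (A, C))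
    simpa [actG, actV] using this
  have hcard : ∀ (i : Fin 3) (A A' : Finset K1) (C C' : Finset K2), A.card = A'.card →
      C.card = C'.card → v (i, (A, C)) = v (i, (A', C')) := by
    intro i A A' C C' hA hC
    rw [eq_of_card_eq_of_swap_inv (fun A => v (i, (A, C))) (hs1 i C) _ A A' rfl hA]
    exact eq_of_card_eq_of_swap_inv (fun C => v (i, (A', C))) (hs2 i A') _ C C' rfl hC
  classical
  let φ : Fin 3 → ℕ → ℝ := fun i l =>
    if h : ∃ σ ∈ (cstates δ : Finset (CState K1 K2)), lev σ i = l then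
      v (i, view (Classical.choose h) i) else 0
  have hv : ∀ σ ∈ (cstates δ : Finset (CState K1 K2)), ∀ i, ev v i σ = φ i (lev σ i) := by
    intro σ hσ i
    have h : ∃ σ' ∈ (cstates δ : Finset (CState K1 K2)), lev σ' i = lev σ i := ⟨σ, hσ, rfl⟩
    simp only [φ, dif_pos h, ev, view]
    obtain ⟨hσ', hc⟩ := Classical.choose_spec h
    apply hcard
    · exact hc.symm
    · have e1 := (mem_cstates δ σ).1 hσ i
      have e2 := (mem_cstates δ _).1 hσ' i
      have hc' : (fib (Classical.choose h).1 i).card = (fib σ.1 i).card := hc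
      omega
  have h0 := Qf_nonneg_of_level h1D δ v φ hv
  rw [heig v] at h0
  have hpos : 0 < ∑ x, v x * v x := by
    obtain ⟨x0, hx0⟩ := Function.ne_iff.1 hvne
    have h1 : v x0 * v x0 ≤ ∑ x, v x * v x :=
      Finset.single_le_sum (f := fun x => v x * v x) (fun x _ => mul_self_nonneg _)
        (Finset.mem_univ x0)
    have h2 : 0 < v x0 * v x0 := mul_self_pos.2 hx0
    linarith
  nlinarith

/-- (L3) for the colouring model, variance form (times `N²`). -/
theorem colour_L3_var (h1D : OneDimStatement) (δ : Fin 3 → ℤ)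
    (g : Fin 3 → CView K1 K2 → ℝ) :
    cov (cstates δ : Finset (CState K1 K2)) (fun σ => ∑ i, g i (view σ i))
        (fun σ => ∑ i, g i (view σ i))
      ≤ 2 * ∑ i, cov (cstates δ : Finset (CState K1 K2)) (fun σ => g i (view σ i))
        (fun σ => g i (view σ i)) := by
  have h := colour_L3 h1D δ (fun x : Fin 3 × CView K1 K2 => g x.1 x.2)
  unfold Qf at h
  have h' : 0 ≤ 2 * ∑ i, cov (cstates δ : Finset (CState K1 K2)) (fun σ => g i (view σ i))
        (fun σ => g i (view σ i))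
      - cov (cstates δ : Finset (CState K1 K2)) (fun σ => ∑ i, g i (view σ i))
        (fun σ => ∑ i, g i (view σ i)) := h
  linarith

/-- (L3) for the colouring model, mean-zero form. -/
theorem colour_L3_mean_zero (h1D : OneDimStatement) (δ : Fin 3 → ℤ)
    (g : Fin 3 → CView K1 K2 → ℝ)
    (h0 : ∀ i, ∑ σ ∈ (cstates δ : Finset (CState K1 K2)), g i (view σ i) = 0) :
    ∑ σ ∈ (cstates δ : Finset (CState K1 K2)), (∑ i, g i (view σ i)) ^ 2
      ≤ 2 * ∑ σ ∈ (cstates δ : Finset (CState K1 K2)), ∑ i, (g i (view σ i)) ^ 2 := by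
  have h := colour_L3_var h1D δ g
  unfold cov at h
  have hS : ∑ σ ∈ (cstates δ : Finset (CState K1 K2)), ∑ i, g i (view σ i) = 0 := by
    rw [Finset.sum_comm]; exact Finset.sum_eq_zero fun i _ => h0 i
  simp only [h0, hS, mul_zero, sub_zero] at h
  rw [← Finset.mul_sum, ← mul_assoc, mul_comm (2 : ℝ), mul_assoc] at h
  by_cases hN : (cstates δ : Finset (CState K1 K2)).card = 0
  · rw [Finset.card_eq_zero] at hN
    simp [hN]
  · have hNpos : (0 : ℝ) < ((cstates δ : Finset (CState K1 K2)).card : ℝ) := by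
      exact_mod_cast Nat.pos_of_ne_zero hN
    have h2 := le_of_mul_le_mul_left h hNpos
    rw [Finset.sum_comm (s := (cstates δ : Finset (CState K1 K2)))]
    simpa only [pow_two] using h2

end Colour

end Crest.Agent.Helper70.S0453
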