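import Mathlib
import Crest.Agent.Helper70.S0453.Colour

/-!
# (L3) for three-row 0/1 tables with fixed margins  (helper70, S0453 / WP-D1)

`tables r c` = families of three finsets `x 0, x 1, x 2` of columns (`x i` = the columns where
row `i` has a `1`) with `|x i| = r i` and `#{i | w ∈ x i} = c w`.  For functions `g i` of row `i`
with zero sum over the tables: `∑ (g 0 + g 1 + g 2)² ≤ 2 ∑ (g 0² + g 1² + g 2²)`.

This is deduced from the colouring model (`Colour.lean`): columns of sum `1` are coloured by the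
row holding the `1`, columns of sum `2` by the row holding the `0`.
-/

namespace Crest.Agent.Helper70.S0453

open Finset

section Table

variable {C : Type*} [Fintype C] [DecidableEq C]

/-- Three-row 0/1 tables (rows as finsets of columns) with row sums `r` and column sums `c`. -/
def tables (r : Fin 3 → ℕ) (c : C → ℕ) : Finset (Fin 3 → Finset C) :=
  univ.filter fun x => (∀ i, (x i).card = r i) ∧ (∀ w, (univ.filter fun i => w ∈ x i).card = c w)

lemma mem_tables (r : Fin 3 → ℕ) (c : C → ℕ) (x : Fin 3 → Finset C) :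
    x ∈ tables r c ↔ (∀ i, (x i).card = r i) ∧ (∀ w, (univ.filter fun i => w ∈ x i).card = c w) := by
  simp [tables]

/-- Columns of sum one. -/
abbrev T1 (c : C → ℕ) := {w : C // c w = 1}

/-- Columns of sum two. -/
abbrev T2 (c : C → ℕ) := {w : C // c w = 2}

/-- The row determined by a view of the colouring model. -/
def rowOf (c : C → ℕ) (Y : Finset (T1 c) × Finset (T2 c)) : Finset C :=
  (univ.filter fun w => c w = 3) ∪ Y.1.map (Function.Embedding.subtype _)
    ∪ ((univ.filter fun w => c w = 2) \ Y.2.map (Function.Embedding.subtype _))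

lemma mem_map_T1 (c : C → ℕ) (A : Finset (T1 c)) (w : C) :
    w ∈ A.map (Function.Embedding.subtype _) ↔ ∃ h : c w = 1, (⟨w, h⟩ : T1 c) ∈ A := by
  rw [Finset.mem_map]
  constructor
  · rintro ⟨⟨a, ha⟩, haA, rfl⟩; exact ⟨ha, haA⟩
  · rintro ⟨h, hA⟩; exact ⟨⟨w, h⟩, hA, rfl⟩

lemma mem_map_T2 (c : C → ℕ) (A : Finset (T2 c)) (w : C) :
    w ∈ A.map (Function.Embedding.subtype _) ↔ ∃ h : c w = 2, (⟨w, h⟩ : T2 c) ∈ A := by
  rw [Finset.mem_map]
  constructor
  · rintro ⟨⟨a, ha⟩, haA, rfl⟩; exact ⟨ha, haA⟩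
  · rintro ⟨h, hA⟩; exact ⟨⟨w, h⟩, hA, rfl⟩

lemma mem_rowOf (c : C → ℕ) (Y : Finset (T1 c) × Finset (T2 c)) (w : C) :
    w ∈ rowOf c Y ↔ c w = 3 ∨ (∃ h : c w = 1, (⟨w, h⟩ : T1 c) ∈ Y.1)
      ∨ (c w = 2 ∧ ¬ ∃ h : c w = 2, (⟨w, h⟩ : T2 c) ∈ Y.2) := by
  unfold rowOf
  rw [Finset.mem_union, Finset.mem_union, Finset.mem_sdiff, mem_map_T1, mem_map_T2,
    Finset.mem_filter, Finset.mem_filter]
  simp only [Finset.mem_univ, true_and, or_assoc]

/-- The table of a state of the colouring model. -/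
def tabOf (c : C → ℕ) (σ : CState (T1 c) (T2 c)) : Fin 3 → Finset C :=
  fun i => rowOf c (view σ i)

lemma mem_tabOf (c : C → ℕ) (σ : CState (T1 c) (T2 c)) (i : Fin 3) (w : C) :
    w ∈ tabOf c σ i ↔ c w = 3 ∨ (∃ h : c w = 1, σ.1 ⟨w, h⟩ = i)
      ∨ (c w = 2 ∧ ¬ ∃ h : c w = 2, σ.2 ⟨w, h⟩ = i) := by
  unfold tabOf
  rw [mem_rowOf]
  simp only [view, mem_fib]

lemma card_tabOf (c : C → ℕ) (σ : CState (T1 c) (T2 c)) (i : Fin 3) :
    (tabOf c σ i).card + (fib σ.2 i).card
      = (univ.filter fun w => c w = 3).card + (fib σ.1 i).card + Fintype.card (T2 c) := by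
  unfold tabOf rowOf
  have hsub : (fib σ.2 i).map (Function.Embedding.subtype _) ⊆ (univ.filter fun w => c w = 2) := by
    intro w hw
    rw [mem_map_T2] at hw
    obtain ⟨h, -⟩ := hw
    simp [h]
  have hd1 : Disjoint (univ.filter fun w => c w = 3)
      ((fib σ.1 i).map (Function.Embedding.subtype _)) := by
    rw [Finset.disjoint_left]
    intro w hw hw'
    rw [mem_map_T1] at hw'
    obtain ⟨h, -⟩ := hw'
    simp [h] at hw
  have hd2 : Disjoint ((univ.filter fun w => c w = 3) ∪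
      ((fib σ.1 i).map (Function.Embedding.subtype _)))
      ((univ.filter fun w => c w = 2) \ (fib σ.2 i).map (Function.Embedding.subtype _)) := by
    rw [Finset.disjoint_left]
    intro w hw hw'
    rw [Finset.mem_sdiff, Finset.mem_filter] at hw'
    rw [Finset.mem_union, Finset.mem_filter, mem_map_T1] at hw
    rcases hw with ⟨-, h3⟩ | ⟨h1, -⟩
    · omega
    · omega
  simp only [view]
  rw [Finset.card_union_of_disjoint hd2, Finset.card_union_of_disjoint hd1,
    Finset.card_sdiff_of_subset hsub, Finset.card_map, Finset.card_map]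
  have h2 : (univ.filter fun w => c w = 2).card = Fintype.card (T2 c) :=
    (Fintype.card_subtype _).symm
  have hle := Finset.card_le_card hsub
  rw [Finset.card_map] at hle
  omega

lemma col_tabOf (c : C → ℕ) (hc3 : ∀ w, c w ≤ 3) (σ : CState (T1 c) (T2 c)) (w : C) :
    (univ.filter fun i => w ∈ tabOf c σ i).card = c w := by
  have hcases : c w = 0 ∨ c w = 1 ∨ c w = 2 ∨ c w = 3 := by have := hc3 w; omega
  rcases hcases with h | h | h | h
  · have : (univ.filter fun i => w ∈ tabOf c σ i) = ∅ := by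
      rw [Finset.eq_empty_iff_forall_notMem]
      intro i hi
      rw [Finset.mem_filter, mem_tabOf] at hi
      rcases hi.2 with h3 | ⟨h1, -⟩ | ⟨h2, -⟩ <;> omega
    rw [this, h]; rfl
  · have : (univ.filter fun i => w ∈ tabOf c σ i) = {σ.1 ⟨w, h⟩} := by
      ext i
      rw [Finset.mem_filter, mem_tabOf, Finset.mem_singleton]
      constructor
      · rintro ⟨-, h3 | ⟨h1, rfl⟩ | ⟨h2, -⟩⟩
        · omega
        · rfl
        · omega
      · rintro rfl
        exact ⟨Finset.mem_univ _, Or.inr (Or.inl ⟨h, rfl⟩)⟩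
    rw [this, h, Finset.card_singleton]
  · have : (univ.filter fun i => w ∈ tabOf c σ i) = univ.erase (σ.2 ⟨w, h⟩) := by
      ext i
      rw [Finset.mem_filter, mem_tabOf, Finset.mem_erase]
      constructor
      · rintro ⟨-, h3 | ⟨h1, -⟩ | ⟨h2, hne⟩⟩
        · omega
        · omega
        · exact ⟨fun hi => hne ⟨h, hi.symm⟩, Finset.mem_univ _⟩
      · rintro ⟨hne, -⟩
        refine ⟨Finset.mem_univ _, Or.inr (Or.inr ⟨h, ?_⟩)⟩
        rintro ⟨h', he⟩
        exact hne he.symm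
    rw [this, h, Finset.card_erase_of_mem (Finset.mem_univ _), Finset.card_univ, Fintype.card_fin]
  · have : (univ.filter fun i => w ∈ tabOf c σ i) = univ := by
      ext i
      rw [Finset.mem_filter, mem_tabOf]
      simp [h]
    rw [this, h, Finset.card_univ, Fintype.card_fin]

lemma tabOf_injective (c : C → ℕ) : Function.Injective (tabOf c) := by
  intro σ σ' heq
  refine Prod.ext (funext fun ⟨w, hw⟩ => ?_) (funext fun ⟨w, hw⟩ => ?_)
  · have h1 : w ∈ tabOf c σ (σ.1 ⟨w, hw⟩) := (mem_tabOf c σ _ w).2 (Or.inr (Or.inl ⟨hw, rfl⟩))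
    rw [heq, mem_tabOf] at h1
    rcases h1 with h3 | ⟨h, he⟩ | ⟨h2, -⟩
    · omega
    · exact he.symm
    · omega
  · have h1 : w ∉ tabOf c σ (σ.2 ⟨w, hw⟩) := by
      rw [mem_tabOf]
      rintro (h3 | ⟨h, -⟩ | ⟨-, hne⟩)
      · omega
      · omega
      · exact hne ⟨hw, rfl⟩
    rw [heq, mem_tabOf] at h1
    by_contra hne
    exact h1 (Or.inr (Or.inr ⟨hw, fun ⟨h, he⟩ => hne he.symm⟩))

/-- The deficits of the colouring model of a table class. -/
def deltaOf (r : Fin 3 → ℕ) (c : C → ℕ) : Fin 3 → ℤ := fun i =>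
  (r i : ℤ) - (Fintype.card (T2 c) : ℤ) - ((univ.filter fun w => c w = 3).card : ℤ)

lemma tables_eq_image (r : Fin 3 → ℕ) (c : C → ℕ) (hc3 : ∀ w, c w ≤ 3) :
    tables r c = (cstates (deltaOf r c)).image (tabOf c) := by
  ext x
  rw [Finset.mem_image, mem_tables]
  constructor
  · rintro ⟨hrow, hcol⟩
    have hcw : ∀ w, c w = (if w ∈ x 0 then 1 else 0) + (if w ∈ x 1 then 1 else 0)
        + (if w ∈ x 2 then 1 else 0) := by
      intro w; rw [← hcol w, Finset.card_filter, Fin.sum_univ_three]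
    set σ : CState (T1 c) (T2 c) :=
      (fun w => if (w : C) ∈ x 0 then 0 else if (w : C) ∈ x 1 then 1 else 2,
       fun w => if (w : C) ∉ x 0 then 0 else if (w : C) ∉ x 1 then 1 else 2) with hσ
    have hΦ : tabOf c σ = x := by
      funext i
      ext w
      rw [mem_tabOf]
      have hw := hcw w
      by_cases h0 : w ∈ x 0 <;> by_cases h1 : w ∈ x 1 <;> by_cases h2 : w ∈ x 2 <;>
        simp only [h0, h1, h2, if_true, if_false] at hw <;>
        fin_cases i <;> simp [hσ, h0, h1, h2, hw]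
    refine ⟨σ, ?_, hΦ⟩
    rw [mem_cstates]
    intro i
    have h1 := card_tabOf c σ i
    rw [hΦ, hrow i] at h1
    unfold deltaOf
    omega
  · rintro ⟨σ, hσ, rfl⟩
    rw [mem_cstates] at hσ
    refine ⟨fun i => ?_, fun w => col_tabOf c hc3 σ w⟩
    have h1 := card_tabOf c σ i
    have h2 := hσ i
    unfold deltaOf at h2
    omega

/-- **(L3) for three-row tables**, mean-zero form. -/
theorem table_L3 (h1D : OneDimStatement) (r : Fin 3 → ℕ) (c : C → ℕ)
    (g : Fin 3 → Finset C → ℝ) (h0 : ∀ i, ∑ x ∈ tables r c, g i (x i) = 0) :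
    ∑ x ∈ tables r c, (∑ i, g i (x i)) ^ 2 ≤ 2 * ∑ x ∈ tables r c, ∑ i, (g i (x i)) ^ 2 := by
  by_cases hc3 : ∀ w, c w ≤ 3
  · rw [tables_eq_image r c hc3] at h0 ⊢
    have hinj : ∀ σ ∈ (cstates (deltaOf r c) : Finset (CState (T1 c) (T2 c))),
        ∀ σ' ∈ (cstates (deltaOf r c) : Finset (CState (T1 c) (T2 c))),
        tabOf c σ = tabOf c σ' → σ = σ' := fun σ _ σ' _ h => tabOf_injective c h
    rw [Finset.sum_image hinj, Finset.sum_image hinj]
    have h0' : ∀ i, ∑ σ ∈ (cstates (deltaOf r c) : Finset (CState (T1 c) (T2 c))),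
        (fun i Y => g i (rowOf c Y)) i (view σ i) = 0 := by
      intro i
      have := h0 i
      rw [Finset.sum_image hinj] at this
      exact this
    exact colour_L3_mean_zero h1D (deltaOf r c) (fun i Y => g i (rowOf c Y)) h0'
  · have hempty : tables r c = ∅ := by
      rw [Finset.eq_empty_iff_forall_notMem]
      intro x hx
      rw [mem_tables] at hx
      apply hc3
      intro w
      rw [← hx.2 w]
      calc (univ.filter fun i => w ∈ x i).card ≤ (univ : Finset (Fin 3)).card :=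
            Finset.card_le_card (Finset.filter_subset _ _)
        _ = 3 := by simp
    rw [hempty]; simp

/-- (L3) transported along a bijection of a finite set `F` with a table class. -/
theorem table_L3_of_bij (h1D : OneDimStatement) {Ω : Type*} (F : Finset Ω) (r : Fin 3 → ℕ)
    (c : C → ℕ) (row : Ω → Fin 3 → Finset C) (hinj : Set.InjOn row F)
    (himg : F.image row = tables r c) (g : Fin 3 → Ω → ℝ)
    (hg : ∀ i, ∀ ω ∈ F, ∀ ω' ∈ F, row ω i = row ω' i → g i ω = g i ω')
    (h0 : ∀ i, ∑ ω ∈ F, g i ω = 0) :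
    ∑ ω ∈ F, (∑ i, g i ω) ^ 2 ≤ 2 * ∑ ω ∈ F, ∑ i, (g i ω) ^ 2 := by
  classical
  let g' : Fin 3 → Finset C → ℝ := fun i R =>
    if h : ∃ ω ∈ F, row ω i = R then g i (Classical.choose h) else 0
  have hg' : ∀ i, ∀ ω ∈ F, g i ω = g' i (row ω i) := by
    intro i ω hω
    have h : ∃ ω' ∈ F, row ω' i = row ω i := ⟨ω, hω, rfl⟩
    simp only [g', dif_pos h]
    obtain ⟨h1, h2⟩ := Classical.choose_spec h
    exact hg i ω hω _ h1 h2.symm
  have hinj' : ∀ ω ∈ F, ∀ ω' ∈ F, row ω = row ω' → ω = ω' := fun ω hω ω' hω' h => hinj hω hω' h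
  have hsum : ∀ H : (Fin 3 → Finset C) → ℝ, ∑ x ∈ tables r c, H x = ∑ ω ∈ F, H (row ω) := by
    intro H
    rw [← himg, Finset.sum_image hinj']
  have h0' : ∀ i, ∑ x ∈ tables r c, g' i (x i) = 0 := by
    intro i
    rw [hsum (fun x => g' i (x i)), ← h0 i]
    exact Finset.sum_congr rfl fun ω hω => (hg' i ω hω).symm
  have key := table_L3 h1D r c g' h0'
  rw [hsum (fun x => (∑ i, g' i (x i)) ^ 2), hsum (fun x => ∑ i, (g' i (x i)) ^ 2)] at key
  have e1 : ∑ ω ∈ F, (∑ i, g i ω) ^ 2 = ∑ ω ∈ F, (∑ i, g' i (row ω i)) ^ 2 :=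
    Finset.sum_congr rfl fun ω hω => by
      rw [Finset.sum_congr rfl fun i _ => hg' i ω hω]
  have e2 : ∑ ω ∈ F, ∑ i, (g i ω) ^ 2 = ∑ ω ∈ F, ∑ i, (g' i (row ω i)) ^ 2 :=
    Finset.sum_congr rfl fun ω hω => Finset.sum_congr rfl fun i _ => by rw [hg' i ω hω]
  rw [e1, e2]
  exact key

end Table

end Crest.Agent.Helper70.S0453
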